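import Mathlib
import Vale.Agent.Lib.P243.CoplanarGen

open MeasureTheory Vale.Agent.Lib.P243

namespace Vale.Agent.Results.P243.BangCoplanar

/-- Bang's half-area inequality for cylinder coverings with coplanar axes. Let `E` be a
three-dimensional real inner product space and `K` a compact convex set in `E`. Let `u i` be unit
vectors and `B i` arbitrary subsets of the planes orthogonal to `u i`, such that the cylinders
with bases `B i` and axis directions `u i` cover `K` (a cylinder is the preimage of its base under
the orthogonal projection onto the plane). If all `u i` are orthogonal to one unit vector `n`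
(the axes are parallel to one plane), then the total area of the bases is at least half of the
infimum, over all unit vectors `e`, of the area of the orthogonal projection of `K` onto the
plane orthogonal to `e`; the same holds with the infimum taken only over the unit vectors `e`
orthogonal to `n`. -/
theorem result {E : Type*} [NormedAddCommGroup E] [InnerProductSpace ℝ E] [MeasurableSpace E]
    [BorelSpace E] [FiniteDimensional ℝ E] (hdim : Module.finrank ℝ E = 3)
    (K : Set E) (hKc : IsCompact K) (hKconv : Convex ℝ K)
    {m : ℕ} (u : Fin m → E) (hu : ∀ i, ‖u i‖ = 1) (B : ∀ i, Set ↥(ℝ ∙ u i)ᗮ)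
    (hcov : K ⊆ ⋃ i, (ℝ ∙ u i)ᗮ.orthogonalProjectionOnto ⁻¹' B i)
    (n : E) (hn : ‖n‖ = 1) (hperp : ∀ i, inner ℝ (u i) n = 0) :
    (1 / 2 : ENNReal) *
        (⨅ e : {e : E // ‖e‖ = 1}, volume ((ℝ ∙ (e : E))ᗮ.orthogonalProjectionOnto '' K)) ≤
      ∑ i, volume (B i) ∧
    (1 / 2 : ENNReal) *
        (⨅ e : {e : E // ‖e‖ = 1 ∧ inner ℝ e n = 0},
          volume ((ℝ ∙ (e : E))ᗮ.orthogonalProjectionOnto '' K)) ≤
      ∑ i, volume (B i) := by
  have h2 := coplanar_general hdim hKc hKconv u hu B hcov hn hperp
  refine ⟨le_trans ?_ h2, h2⟩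
  gcongr
  refine le_iInf fun e => ?_
  exact iInf_le (fun e : {e : E // ‖e‖ = 1} =>
    volume ((ℝ ∙ (e : E))ᗮ.orthogonalProjectionOnto '' K)) ⟨e.1, e.2.1⟩

end Vale.Agent.Results.P243.BangCoplanar
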