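import Mathlib
import Vale.Agent.Lib.P243.SymGeneral
import Vale.Agent.Lib.P243.CoplanarGen
import Vale.Agent.Lib.P243.Indexed
import Vale.Agent.Lib.P243.VolIndexed
import Vale.Agent.Lib.P243.Tetra
import Vale.Agent.Lib.P243.TetraEdge
import Vale.Agent.Lib.P243.ConeBase
import Vale.Agent.Lib.P243.ConeChord
import Vale.Agent.Lib.P243.TetraCross
import Vale.Agent.Lib.P243.TetraLocal
import Vale.Agent.Lib.P243.TetraCentral
import Vale.Agent.Lib.P243.MidSymGen
import Vale.Agent.Lib.P243.MidSymCor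
import Vale.Agent.Lib.P243.TetraCoplanar

open MeasureTheory Vale.Agent.Lib.P243

namespace Vale.Agent.Results.P243.BangOmnibusAll

/-- Lower bounds for cylinder coverings of a convex body, most of them with the conjectured
constant `1 / 2`. Let `E` be a three-dimensional real inner product space and `K` a convex body
in `E`. Let `u i` be unit vectors and `B i` arbitrary subsets of the planes orthogonal to `u i`,
such that the cylinders with bases `B i` and axis directions `u i` cover `K` (a cylinder is the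
preimage of its base under the orthogonal projection onto the plane). Write `a i` for the area
of `B i` divided by the area of the orthogonal projection of `K` onto the plane orthogonal to
`u i`, and `A` for the infimum, over all unit vectors `e`, of the area of the orthogonal
projection of `K` onto the plane orthogonal to `e`. Then:
(0) `(∑ a i) * A` is at most the sum of the areas of the `B i` (so every lower bound `c` for
`∑ a i` below gives the lower bound `c * A` for the sum of the areas);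
(1) if every `u i` is a multiple of `v` or of `w`, then `∑ a i ≥ 1 / 2`;
(2) if `K` is symmetric about the origin, then `∑ a i ≥ 5 / 12`;
and if all `u i` are orthogonal to one unit vector `n`, then:
(3) the sum of the areas of the `B i` is at least `A / 2`;
(4) if `K` is symmetric about a point `c0`, then `∑ a i ≥ 1 / 2`;
(5) if `t₀ ≤ ⟪x, n⟫ ≤ t₁` for all `x` in `K`, both bounds are attained, and the middle section
of `K`, the set of its points `x` with `2 * ⟪x, n⟫ = t₀ + t₁`, is symmetric about a point `c`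
of the same plane, then `∑ a i ≥ 1 / 2`;
(6) if `K` is a tetrahedron, the convex hull of four points, then `∑ a i ≥ 1 / 2`;
and if `K` is a cone, the convex hull of a point `v` and a set contained in the plane
`⟪x, n⟫ = a`, which does not pass through `v`, then:
(7) if all `u i` are parallel to that plane, then `∑ a i ≥ 1 / 2`;
(8) if `ρ > 0` and every `u i` is parallel to a chord of `K` with endpoints `x` and `y` such
that `|⟪y - x, n⟫| ≥ ρ |⟪v, n⟫ - a|` (the distances of the endpoints from the plane differ by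
at least `ρ` times the distance of `v` from the plane), then `∑ a i ≥ ρ`;
and if `K` is a tetrahedron, the convex hull of four points `p 0, p 1, p 2, p 3`, then:
(9) `∑ a i ≥ 7 / 20`;
(10) if every `u i` is a multiple of a difference `p j - p k` (parallel to an edge), then
`∑ a i ≥ 1 / 2`;
(11) if, for some permutation `σ` of the four indices, every `u i` is a multiple of a difference
`q' - q` with `q` on the segment from `p (σ 0)` to `p (σ 1)` and `q'` on the segment from
`p (σ 2)` to `p (σ 3)` (the axis is parallel to a segment joining two opposite edges), then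
`∑ a i ≥ 1 / 2`;
(12) if every `u i` is a combination `∑ l, c i l • p l` with `∑ l, c i l = 0` and
`∑ l', |c i l'| ≤ 8 * |c i l|` for every `l`, then `∑ a i ≥ 1 / 2`;
(13) for every nonzero vector `u0` there is `ε > 0` such that every covering of `K` by finitely
many cylinders with nonzero axis vectors `u' i`, each of which has a real multiple at distance
less than `ε` from `u0`, and arbitrary bases `B' i`, has `∑ a' i ≥ 1 / 2`. -/
theorem result {E : Type*} [NormedAddCommGroup E] [InnerProductSpace ℝ E] [MeasurableSpace E]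
    [BorelSpace E] [FiniteDimensional ℝ E] (hdim : Module.finrank ℝ E = 3)
    (K : Set E) (hKc : IsCompact K) (hKconv : Convex ℝ K) (hKint : (interior K).Nonempty)
    {m : ℕ} (u : Fin m → E) (hu : ∀ i, ‖u i‖ = 1) (B : ∀ i, Set ↥(ℝ ∙ u i)ᗮ)
    (hcov : K ⊆ ⋃ i, (ℝ ∙ u i)ᗮ.orthogonalProjectionOnto ⁻¹' B i) :
    ((∑ i, volume (B i) / volume ((ℝ ∙ u i)ᗮ.orthogonalProjectionOnto '' K)) *
        (⨅ e : {e : E // ‖e‖ = 1}, volume ((ℝ ∙ (e : E))ᗮ.orthogonalProjectionOnto '' K)) ≤
      ∑ i, volume (B i)) ∧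
    (∀ v w : E, (∀ i, u i ∈ ℝ ∙ v ∨ u i ∈ ℝ ∙ w) →
      (1 / 2 : ENNReal) ≤
        ∑ i, volume (B i) / volume ((ℝ ∙ u i)ᗮ.orthogonalProjectionOnto '' K)) ∧
    ((∀ x ∈ K, -x ∈ K) →
      ENNReal.ofReal (5 / 12) ≤
        ∑ i, volume (B i) / volume ((ℝ ∙ u i)ᗮ.orthogonalProjectionOnto '' K)) ∧
    (∀ n : E, ‖n‖ = 1 → (∀ i, inner ℝ (u i) n = 0) →
      ((1 / 2 : ENNReal) *
          (⨅ e : {e : E // ‖e‖ = 1}, volume ((ℝ ∙ (e : E))ᗮ.orthogonalProjectionOnto '' K)) ≤
        ∑ i, volume (B i)) ∧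
      (∀ c0 : E, (∀ x ∈ K, (2 : ℝ) • c0 - x ∈ K) →
        (1 / 2 : ENNReal) ≤
          ∑ i, volume (B i) / volume ((ℝ ∙ u i)ᗮ.orthogonalProjectionOnto '' K)) ∧
      (∀ (t₀ t₁ : ℝ) (c : E), (∀ x ∈ K, t₀ ≤ inner ℝ x n ∧ inner ℝ x n ≤ t₁) →
        (∃ x ∈ K, inner ℝ x n = t₀) → (∃ x ∈ K, inner ℝ x n = t₁) →
        2 * inner ℝ c n = t₀ + t₁ →
        (∀ x ∈ K, 2 * inner ℝ x n = t₀ + t₁ → (2 : ℝ) • c - x ∈ K) →
        (1 / 2 : ENNReal) ≤
          ∑ i, volume (B i) / volume ((ℝ ∙ u i)ᗮ.orthogonalProjectionOnto '' K)) ∧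
      (∀ p : Fin 4 → E, K = convexHull ℝ (Set.range p) →
        (1 / 2 : ENNReal) ≤
          ∑ i, volume (B i) / volume ((ℝ ∙ u i)ᗮ.orthogonalProjectionOnto '' K))) ∧
    (∀ (D : Set E) (v n : E) (a : ℝ), K = convexHull ℝ (insert v D) →
      (∀ x ∈ D, inner ℝ x n = a) → inner ℝ v n ≠ a →
      ((∀ i, inner ℝ (u i) n = 0) →
        (1 / 2 : ENNReal) ≤
          ∑ i, volume (B i) / volume ((ℝ ∙ u i)ᗮ.orthogonalProjectionOnto '' K)) ∧
      (∀ ρ : ℝ, 0 < ρ →
        (∀ i, ∃ x ∈ K, ∃ y ∈ K, u i ∈ ℝ ∙ (y - x) ∧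
          ρ * |inner ℝ v n - a| ≤ |inner ℝ (y - x) n|) →
        ENNReal.ofReal ρ ≤
          ∑ i, volume (B i) / volume ((ℝ ∙ u i)ᗮ.orthogonalProjectionOnto '' K))) ∧
    (∀ p : Fin 4 → E, K = convexHull ℝ (Set.range p) →
      (ENNReal.ofReal (7 / 20) ≤
        ∑ i, volume (B i) / volume ((ℝ ∙ u i)ᗮ.orthogonalProjectionOnto '' K)) ∧
      ((∀ i, ∃ j k : Fin 4, u i ∈ ℝ ∙ (p j - p k)) →
        (1 / 2 : ENNReal) ≤
          ∑ i, volume (B i) / volume ((ℝ ∙ u i)ᗮ.orthogonalProjectionOnto '' K)) ∧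
      (∀ σ : Equiv.Perm (Fin 4),
        (∀ i, ∃ q ∈ segment ℝ (p (σ 0)) (p (σ 1)), ∃ q' ∈ segment ℝ (p (σ 2)) (p (σ 3)),
          u i ∈ ℝ ∙ (q' - q)) →
        (1 / 2 : ENNReal) ≤
          ∑ i, volume (B i) / volume ((ℝ ∙ u i)ᗮ.orthogonalProjectionOnto '' K)) ∧
      (∀ c : Fin m → Fin 4 → ℝ, (∀ i, ∑ l, c i l = 0) → (∀ i, u i = ∑ l, c i l • p l) →
        (∀ i l, ∑ l', |c i l'| ≤ 8 * |c i l|) →
        (1 / 2 : ENNReal) ≤
          ∑ i, volume (B i) / volume ((ℝ ∙ u i)ᗮ.orthogonalProjectionOnto '' K)) ∧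
      (∀ u0 : E, u0 ≠ 0 → ∃ ε : ℝ, 0 < ε ∧
        ∀ (m' : ℕ) (u' : Fin m' → E), (∀ i, u' i ≠ 0) →
          (∀ i, ∃ t : ℝ, ‖t • u' i - u0‖ < ε) →
          ∀ B' : ∀ i, Set ↥(ℝ ∙ u' i)ᗮ,
            K ⊆ ⋃ i, (ℝ ∙ u' i)ᗮ.orthogonalProjectionOnto ⁻¹' B' i →
            (1 / 2 : ENNReal) ≤
              ∑ i, volume (B' i) /
                volume ((ℝ ∙ u' i)ᗮ.orthogonalProjectionOnto '' K))) := by
  have hu0 : ∀ i, u i ≠ 0 := fun i h => by
    have := hu i
    rw [h, norm_zero] at this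
    exact zero_ne_one this
  have hKne : K.Nonempty := hKint.mono interior_subset
  refine ⟨abs_of_rel_indexed K hKc hKne u hu B hcov le_rfl, fun v w hdir => ?_,
    fun hsym => sym_indexed hdim K hKc hKconv hKint hsym u hu0 B hcov,
    fun n hn hperp => ⟨?_, fun c0 hsym => ?_,
      fun t₀ t₁ c hb h0 h1 hc hsym => ?_, fun p hp => ?_⟩,
    fun D v n a hK hD hv => ⟨fun hpar =>
      cone_base_indexed hdim K hKc hKconv hKint D v n a hK hD hv u hu0 hpar B hcov,
      fun ρ hρ hch =>
      cone_chord_indexed hdim K hKc hKconv hKint D v n a hK hD hv ρ hρ u hu0 hch B hcov⟩,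
    fun p hp => ?_⟩
  · refine two_dir_indexed hdim K hKc hKconv hKint u hu0 B ?_ v w hdir
    intro x hx
    obtain ⟨i, hi⟩ := Set.mem_iUnion.mp (hcov hx)
    exact ⟨i, hi⟩
  · have h2 := coplanar_general hdim hKc hKconv u hu B hcov hn hperp
    refine le_trans ?_ h2
    gcongr
    refine le_iInf fun e => ?_
    exact iInf_le (fun e : {e : E // ‖e‖ = 1} =>
      volume ((ℝ ∙ (e : E))ᗮ.orthogonalProjectionOnto '' K)) ⟨e.1, e.2.1⟩
  · exact symbody_coplanar hdim hKc hKconv hKint c0 hsym u hu B hcov hn hperp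
  · obtain ⟨x₀, hx₀, hx₀t⟩ := h0
    obtain ⟨x₁, hx₁, hx₁t⟩ := h1
    exact midsym_coplanar hdim hKc hKconv hKint u hu B hcov hn hperp t₀ t₁
      (fun x hx => (hb x hx).1) (fun x hx => (hb x hx).2) x₀ x₁ hx₀ hx₁ hx₀t hx₁t c hc hsym
  · subst hp
    exact tetra_coplanar hdim p hKint u hu B hcov hn hperp
  · subst hp
    exact ⟨tetra_indexed hdim p hKint u hu0 B hcov,
      fun hedge => tetra_edge_indexed hdim p hKint u hu0 hedge B hcov,
      fun σ hcross => tetra_cross_indexed hdim p hKint σ u hu0 hcross B hcov,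
      fun c hc0 hcu hcen => tetra_central_indexed hdim p hKint u hu0 c hc0 hcu hcen B hcov,
      fun u0 hu00 => tetra_local hdim p hKint u0 hu00⟩

end Vale.Agent.Results.P243.BangOmnibusAll
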