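import Mathlib
import Vale.Agent.Lib.P243.SymGeneral
import Vale.Agent.Lib.P243.CoplanarGen
import Vale.Agent.Lib.P243.Indexed
import Vale.Agent.Lib.P243.VolIndexed
import Vale.Agent.Lib.P243.Tetra
import Vale.Agent.Lib.P243.TetraEdge

open MeasureTheory Vale.Agent.Lib.P243

namespace Vale.Agent.Results.P243.BangOmnibusEdge

/-- Eight lower bounds for cylinder coverings of a convex body. Let `E` be a three-dimensional real
inner product space and `K` a convex body in `E`. Let `u i` be unit vectors and `B i` arbitrary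
subsets of the planes orthogonal to `u i`, such that the cylinders with bases `B i` and axis
directions `u i` cover `K` (a cylinder is the preimage of its base under the orthogonal
projection onto the plane). Write `a i` for the area of `B i` divided by the area of the
orthogonal projection of `K` onto the plane orthogonal to `u i`, and `A` for the infimum, over
all unit vectors `e`, of the area of the orthogonal projection of `K` onto the plane orthogonal
to `e`. Then:
(1) for all parameters `σ i` between `0` and `1`, the numbers `3 (1 - σ i) a i + σ i ^ 3` add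
up to at least `1`;
(2) if no base has larger area than the corresponding projection of `K`, then
`1 + 2 ∑ a i ^ (3 / 2) ≤ 3 ∑ a i`;
(3) if every `u i` is a multiple of one of `d` vectors, then `∑ a i ≥ (1 - d s ^ 3) / (3 (1 - s))`
for every `s` with `0 ≤ s < 1`;
(4) if every `u i` is a multiple of `v` or of `w`, then `∑ a i ≥ 1 / 2`;
(5) if all `u i` are orthogonal to one unit vector, then the sum of the areas of the `B i` is at
least `A / 2`;
(6) if `K` is symmetric about the origin, then `∑ a i ≥ 5 / 12` and the sum of the areas of the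
`B i` is at least `5 A / 12`;
(7) if `K` is a tetrahedron (the convex hull of four points), then `∑ a i ≥ 7 / 20` and the sum
of the areas of the `B i` is at least `7 A / 20`;
(8) if `K` is the convex hull of four points `p j` and every `u i` is a multiple of a difference
`p j - p k` (every axis is parallel to an edge of the tetrahedron), then `∑ a i ≥ 1 / 2` and the
sum of the areas of the `B i` is at least `A / 2`. -/
theorem result {E : Type*} [NormedAddCommGroup E] [InnerProductSpace ℝ E] [MeasurableSpace E]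
    [BorelSpace E] [FiniteDimensional ℝ E] (hdim : Module.finrank ℝ E = 3)
    (K : Set E) (hKc : IsCompact K) (hKconv : Convex ℝ K) (hKint : (interior K).Nonempty)
    {m : ℕ} (u : Fin m → E) (hu : ∀ i, ‖u i‖ = 1) (B : ∀ i, Set ↥(ℝ ∙ u i)ᗮ)
    (hcov : K ⊆ ⋃ i, (ℝ ∙ u i)ᗮ.orthogonalProjectionOnto ⁻¹' B i) :
    (∀ σ : Fin m → ℝ, (∀ i, 0 ≤ σ i ∧ σ i ≤ 1) →
      (1 : ENNReal) ≤ ∑ i, (ENNReal.ofReal (3 * (1 - σ i)) *
        (volume (B i) / volume ((ℝ ∙ u i)ᗮ.orthogonalProjectionOnto '' K)) +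
        ENNReal.ofReal (σ i ^ 3))) ∧
    ((∀ i, volume (B i) ≤ volume ((ℝ ∙ u i)ᗮ.orthogonalProjectionOnto '' K)) →
      1 + 2 * ∑ i, (volume (B i) /
          volume ((ℝ ∙ u i)ᗮ.orthogonalProjectionOnto '' K)).toReal ^ (3 / 2 : ℝ) ≤
        3 * ∑ i, (volume (B i) /
          volume ((ℝ ∙ u i)ᗮ.orthogonalProjectionOnto '' K)).toReal) ∧
    (∀ (d : ℕ) (v : Fin d → E), (∀ i, ∃ j, u i ∈ ℝ ∙ v j) → ∀ s : ℝ, 0 ≤ s → s < 1 →
      ENNReal.ofReal ((1 - d * s ^ 3) / (3 * (1 - s))) ≤
        ∑ i, volume (B i) / volume ((ℝ ∙ u i)ᗮ.orthogonalProjectionOnto '' K)) ∧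
    (∀ v w : E, (∀ i, u i ∈ ℝ ∙ v ∨ u i ∈ ℝ ∙ w) →
      (1 / 2 : ENNReal) ≤
        ∑ i, volume (B i) / volume ((ℝ ∙ u i)ᗮ.orthogonalProjectionOnto '' K)) ∧
    (∀ n : E, ‖n‖ = 1 → (∀ i, inner ℝ (u i) n = 0) →
      (1 / 2 : ENNReal) *
          (⨅ e : {e : E // ‖e‖ = 1}, volume ((ℝ ∙ (e : E))ᗮ.orthogonalProjectionOnto '' K)) ≤
        ∑ i, volume (B i)) ∧
    ((∀ x ∈ K, -x ∈ K) →
      ENNReal.ofReal (5 / 12) ≤
          ∑ i, volume (B i) / volume ((ℝ ∙ u i)ᗮ.orthogonalProjectionOnto '' K) ∧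
        ENNReal.ofReal (5 / 12) *
            (⨅ e : {e : E // ‖e‖ = 1},
              volume ((ℝ ∙ (e : E))ᗮ.orthogonalProjectionOnto '' K)) ≤
          ∑ i, volume (B i)) ∧
    ((∃ p : Fin 4 → E, K = convexHull ℝ (Set.range p)) →
      ENNReal.ofReal (7 / 20) ≤
          ∑ i, volume (B i) / volume ((ℝ ∙ u i)ᗮ.orthogonalProjectionOnto '' K) ∧
        ENNReal.ofReal (7 / 20) *
            (⨅ e : {e : E // ‖e‖ = 1},
              volume ((ℝ ∙ (e : E))ᗮ.orthogonalProjectionOnto '' K)) ≤
          ∑ i, volume (B i)) ∧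
    (∀ p : Fin 4 → E, K = convexHull ℝ (Set.range p) →
      (∀ i, ∃ j k : Fin 4, u i ∈ ℝ ∙ (p j - p k)) →
      (1 / 2 : ENNReal) ≤
          ∑ i, volume (B i) / volume ((ℝ ∙ u i)ᗮ.orthogonalProjectionOnto '' K) ∧
        (1 / 2 : ENNReal) *
            (⨅ e : {e : E // ‖e‖ = 1},
              volume ((ℝ ∙ (e : E))ᗮ.orthogonalProjectionOnto '' K)) ≤
          ∑ i, volume (B i)) := by
  have hu0 : ∀ i, u i ≠ 0 := fun i h => by
    have := hu i
    rw [h, norm_zero] at this
    exact zero_ne_one this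
  have hKne : K.Nonempty := hKint.mono interior_subset
  refine ⟨fun σ hσ => volume_sigma_indexed hdim K hKc hKconv hKint u hu0 B hcov σ hσ,
    fun hle => volume_sharp_indexed hdim K hKc hKconv hKint u hu0 B hcov hle,
    fun d v hdir s hs0 hs1 =>
      many_dir_indexed_sigma hdim K hKc hKconv hKint u hu0 B hcov v hdir hs0 hs1,
    fun v w hdir => ?_, fun n hn hperp => ?_, fun hsym => ?_, fun htet => ?_,
    fun p hp hedge => ?_⟩
  · refine two_dir_indexed hdim K hKc hKconv hKint u hu0 B ?_ v w hdir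
    intro x hx
    obtain ⟨i, hi⟩ := Set.mem_iUnion.mp (hcov hx)
    exact ⟨i, hi⟩
  · have h2 := coplanar_general hdim hKc hKconv u hu B hcov hn hperp
    refine le_trans ?_ h2
    gcongr
    refine le_iInf fun e => ?_
    exact iInf_le (fun e : {e : E // ‖e‖ = 1} =>
      volume ((ℝ ∙ (e : E))ᗮ.orthogonalProjectionOnto '' K)) ⟨e.1, e.2.1⟩
  · have h1 := sym_indexed hdim K hKc hKconv hKint hsym u hu0 B hcov
    exact ⟨h1, abs_of_rel_indexed K hKc hKne u hu B hcov h1⟩
  · obtain ⟨p, rfl⟩ := htet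
    have h1 := tetra_indexed hdim p hKint u hu0 B hcov
    exact ⟨h1, abs_of_rel_indexed _ hKc hKne u hu B hcov h1⟩
  · subst hp
    have h1 := tetra_edge_indexed hdim p hKint u hu0 hedge B hcov
    exact ⟨h1, abs_of_rel_indexed _ hKc hKne u hu B hcov h1⟩

end Vale.Agent.Results.P243.BangOmnibusEdge
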