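import Mathlib
import Vale.Agent.Lib.P243.CoplanarGen
import Vale.Agent.Lib.P243.Indexed
import Vale.Agent.Lib.P243.MidSymGen
import Vale.Agent.Lib.P243.MidSymCor
import Vale.Agent.Lib.P243.TetraCoplanar

open MeasureTheory Vale.Agent.Lib.P243

namespace Vale.Agent.Results.P243.BangOmnibusTet

/-- Cases of the half-area inequalities for cylinder coverings, with the conjectured constant
`1 / 2`. Let `E` be a three-dimensional real inner product space and `K` a convex body in `E`.
Let `u i` be unit vectors and `B i` arbitrary subsets of the planes orthogonal to `u i`, such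
that the cylinders with bases `B i` and axis directions `u i` cover `K` (a cylinder is the
preimage of its base under the orthogonal projection onto the plane). Write `a i` for the area
of `B i` divided by the area of the orthogonal projection of `K` onto the plane orthogonal to
`u i`, and `A` for the infimum, over all unit vectors `e`, of the area of the orthogonal
projection of `K` onto the plane orthogonal to `e`. Then:
(1) if every `u i` is a multiple of `v` or of `w`, then `∑ a i ≥ 1 / 2`;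
and if all `u i` are orthogonal to one unit vector `n`, then:
(2) the sum of the areas of the `B i` is at least `A / 2`;
(3) if `K` is symmetric about a point `c0`, then `∑ a i ≥ 1 / 2`;
(4) if `t₀ ≤ ⟪x, n⟫ ≤ t₁` for all `x` in `K`, both bounds are attained, and the middle section
of `K`, the set of its points `x` with `2 * ⟪x, n⟫ = t₀ + t₁`, is symmetric about a point `c`
of the same plane, then `∑ a i ≥ 1 / 2`;
(5) if `K` is a tetrahedron, the convex hull of four points `p 0, p 1, p 2, p 3`, then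
`∑ a i ≥ 1 / 2` (for every tetrahedron and every plane to which all axes are parallel). -/
theorem result {E : Type*} [NormedAddCommGroup E] [InnerProductSpace ℝ E] [MeasurableSpace E]
    [BorelSpace E] [FiniteDimensional ℝ E] (hdim : Module.finrank ℝ E = 3)
    (K : Set E) (hKc : IsCompact K) (hKconv : Convex ℝ K) (hKint : (interior K).Nonempty)
    {m : ℕ} (u : Fin m → E) (hu : ∀ i, ‖u i‖ = 1) (B : ∀ i, Set ↥(ℝ ∙ u i)ᗮ)
    (hcov : K ⊆ ⋃ i, (ℝ ∙ u i)ᗮ.orthogonalProjectionOnto ⁻¹' B i) :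
    (∀ v w : E, (∀ i, u i ∈ ℝ ∙ v ∨ u i ∈ ℝ ∙ w) →
      (1 / 2 : ENNReal) ≤
        ∑ i, volume (B i) / volume ((ℝ ∙ u i)ᗮ.orthogonalProjectionOnto '' K)) ∧
    (∀ n : E, ‖n‖ = 1 → (∀ i, inner ℝ (u i) n = 0) →
      ((1 / 2 : ENNReal) *
          (⨅ e : {e : E // ‖e‖ = 1}, volume ((ℝ ∙ (e : E))ᗮ.orthogonalProjectionOnto '' K)) ≤
        ∑ i, volume (B i)) ∧
      (∀ c0 : E, (∀ x ∈ K, (2 : ℝ) • c0 - x ∈ K) →
        (1 / 2 : ENNReal) ≤
          ∑ i, volume (B i) / volume ((ℝ ∙ u i)ᗮ.orthogonalProjectionOnto '' K)) ∧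
      (∀ (t₀ t₁ : ℝ) (c : E), (∀ x ∈ K, t₀ ≤ inner ℝ x n ∧ inner ℝ x n ≤ t₁) →
        (∃ x ∈ K, inner ℝ x n = t₀) → (∃ x ∈ K, inner ℝ x n = t₁) →
        2 * inner ℝ c n = t₀ + t₁ →
        (∀ x ∈ K, 2 * inner ℝ x n = t₀ + t₁ → (2 : ℝ) • c - x ∈ K) →
        (1 / 2 : ENNReal) ≤
          ∑ i, volume (B i) / volume ((ℝ ∙ u i)ᗮ.orthogonalProjectionOnto '' K)) ∧
      (∀ p : Fin 4 → E, K = convexHull ℝ (Set.range p) →
        (1 / 2 : ENNReal) ≤
          ∑ i, volume (B i) / volume ((ℝ ∙ u i)ᗮ.orthogonalProjectionOnto '' K))) := by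
  have hu0 : ∀ i, u i ≠ 0 := fun i h => by
    have := hu i
    rw [h, norm_zero] at this
    exact zero_ne_one this
  refine ⟨fun v w hdir => ?_, fun n hn hperp => ⟨?_, fun c0 hsym => ?_,
    fun t₀ t₁ c hb h0 h1 hc hsym => ?_, fun p hp => ?_⟩⟩
  · refine two_dir_indexed hdim K hKc hKconv hKint u hu0 B ?_ v w hdir
    intro x hx
    obtain ⟨i, hi⟩ := Set.mem_iUnion.mp (hcov hx)
    exact ⟨i, hi⟩
  · have h2 := coplanar_general hdim hKc hKconv u hu B hcov hn hperp
    refine le_trans ?_ h2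
    gcongr
    refine le_iInf fun e => ?_
    exact iInf_le (fun e : {e : E // ‖e‖ = 1} =>
      volume ((ℝ ∙ (e : E))ᗮ.orthogonalProjectionOnto '' K)) ⟨e.1, e.2.1⟩
  · exact symbody_coplanar hdim hKc hKconv hKint c0 hsym u hu B hcov hn hperp
  · obtain ⟨x₀, hx₀, hx₀t⟩ := h0
    obtain ⟨x₁, hx₁, hx₁t⟩ := h1
    exact midsym_coplanar hdim hKc hKconv hKint u hu B hcov hn hperp t₀ t₁
      (fun x hx => (hb x hx).1) (fun x hx => (hb x hx).2) x₀ x₁ hx₀ hx₁ hx₀t hx₁t c hc hsym
  · subst hp
    exact tetra_coplanar hdim p hKint u hu B hcov hn hperp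

end Vale.Agent.Results.P243.BangOmnibusTet
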